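import Mathlib
import Vale.Agent.P034.Cluster

namespace Vale.Agent.Results.P034.BoundedDegreeSupport

open Finset Vale.Agent.P034

open Classical in
theorem result (X : Type) [Fintype X] [DecidableEq X] (F : Finset (Finset X))
    (g : Finset X → ℝ) (p : ℝ) (hp0 : 0 ≤ p)
    (hg : IsFracCover g F) (hcost : fracCost g p ≤ 1 / 2)
    (D : ℕ) (hD : 1 ≤ D)
    (hdeg : ∀ x : X, ((univ : Finset (Finset X)).filter (fun S => g S ≠ 0 ∧ x ∈ S)).card ≤ D) :
    IsSmall F (min p (1 / (D : ℝ)) / 2 ^ 39) := by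
  set E : Finset (Finset X) := (univ : Finset (Finset X)).filter (fun S => g S ≠ 0) with hE
  apply linked_small_min X F g p hp0 hg hcost E D hD
  · intro x
    refine le_trans (Finset.card_le_card ?_) (hdeg x)
    intro T hT
    obtain ⟨hTE, hxT⟩ := Finset.mem_filter.mp hT
    exact Finset.mem_filter.mpr ⟨Finset.mem_univ _, (Finset.mem_filter.mp hTE).2, hxT⟩
  · intro S hS Q hQne hQss
    refine ⟨S, Finset.mem_filter.mpr ⟨Finset.mem_univ _, hS⟩, Finset.Subset.refl S, ?_, hQss.2⟩
    obtain ⟨a, ha⟩ := hQne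
    rw [Finset.not_disjoint_iff]
    exact ⟨a, hQss.subset ha, ha⟩

end Vale.Agent.Results.P034.BoundedDegreeSupport
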