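import Mathlib
import Vale.Agent.P034.Cluster

namespace Vale.Agent.Results.P034.ConnectedSupport

open Finset Vale.Agent.P034

theorem result (X : Type) [Fintype X] [DecidableEq X] (F : Finset (Finset X))
    (g : Finset X → ℝ) (p : ℝ) (hp0 : 0 ≤ p)
    (hg : IsFracCover g F) (hcost : fracCost g p ≤ 1 / 2)
    (Γ : SimpleGraph X) [DecidableRel Γ.Adj] (D : ℕ) (hD : 1 ≤ D)
    (hdeg : ∀ x, Γ.degree x ≤ D)
    (hconn : ∀ S : Finset X, g S ≠ 0 → (Γ.induce (S : Set X)).Preconnected) :
    IsSmall F (min p (1 / (D : ℝ)) / 2 ^ 39) := by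
  classical
  set E : Finset (Finset X) :=
    ((univ : Finset (X × X)).filter (fun e => Γ.Adj e.1 e.2)).image (fun e => {e.1, e.2}) with hE
  apply linked_small_min X F g p hp0 hg hcost E D hD
  · intro x
    have hsub : E.filter (fun T => x ∈ T)
        ⊆ (Γ.neighborFinset x).image (fun y => ({x, y} : Finset X)) := ?_
    · exact le_trans (Finset.card_le_card hsub) (le_trans Finset.card_image_le (hdeg x))
    intro T hT
    obtain ⟨hTE, hxT⟩ := Finset.mem_filter.mp hT
    obtain ⟨e, he, rfl⟩ := Finset.mem_image.mp hTE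
    have hadj : Γ.Adj e.1 e.2 := (Finset.mem_filter.mp he).2
    simp only [Finset.mem_insert, Finset.mem_singleton] at hxT
    rcases hxT with h | h
    · refine Finset.mem_image.mpr ⟨e.2, ?_, by rw [h]⟩
      rw [SimpleGraph.mem_neighborFinset, h]
      exact hadj
    · refine Finset.mem_image.mpr ⟨e.1, ?_, by rw [h, Finset.pair_comm]⟩
      rw [SimpleGraph.mem_neighborFinset, h]
      exact hadj.symm
  · intro S hS Q hQne hQss
    have hpre := hconn S hS
    obtain ⟨a, ha⟩ := hQne
    obtain ⟨b, hbS, hbQ⟩ := Finset.exists_of_ssubset hQss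
    have haS : a ∈ S := hQss.subset ha
    obtain ⟨w⟩ := hpre ⟨a, by exact_mod_cast haS⟩ ⟨b, by exact_mod_cast hbS⟩
    obtain ⟨d, _, hd1, hd2⟩ := w.exists_boundary_dart {v | (v : X) ∈ Q} ha hbQ
    have hadj : Γ.Adj (d.fst : X) (d.snd : X) := d.adj
    have h1S : (d.fst : X) ∈ S := by exact_mod_cast d.fst.2
    have h2S : (d.snd : X) ∈ S := by exact_mod_cast d.snd.2
    refine ⟨{(d.fst : X), (d.snd : X)}, ?_, ?_, ?_, ?_⟩
    · exact Finset.mem_image.mpr ⟨((d.fst : X), (d.snd : X)),
        Finset.mem_filter.mpr ⟨Finset.mem_univ _, hadj⟩, rfl⟩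
    · intro y hy
      simp only [Finset.mem_insert, Finset.mem_singleton] at hy
      rcases hy with rfl | rfl
      · exact h1S
      · exact h2S
    · rw [Finset.not_disjoint_iff]
      exact ⟨(d.fst : X), by simp, hd1⟩
    · intro hsub
      exact hd2 (hsub (by simp))

end Vale.Agent.Results.P034.ConnectedSupport
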