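import Mathlib
import Vale.Agent.P034.Core

namespace Vale.Agent.Results.P034.DisjointOrNestedSupport

open Finset Vale.Agent.P034

/-- The family `G` covers `F`: every member of `F` contains a member of `G`. -/
def Covers {X : Type} (G F : Finset (Finset X)) : Prop :=
  ∀ H ∈ F, ∃ S ∈ G, S ⊆ H

/-- The cost of the family `G` at `p`, with the convention `p ^ 0 = 1`. -/
def cost {X : Type} (G : Finset (Finset X)) (p : ℝ) : ℝ :=
  ∑ S ∈ G, p ^ S.card

/-- `F` is `p`-small: some cover of `F` has cost at most `1 / 2` at `p`. -/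
def IsSmall {X : Type} (F : Finset (Finset X)) (p : ℝ) : Prop :=
  ∃ G : Finset (Finset X), Covers G F ∧ cost G p ≤ 1 / 2

/-- `g` is a fractional cover of `F`. -/
def IsFracCover {X : Type} (g : Finset X → ℝ) (F : Finset (Finset X)) : Prop :=
  (∀ S, 0 ≤ g S ∧ g S ≤ 1) ∧ ∀ H ∈ F, 1 ≤ ∑ S ∈ H.powerset, g S

/-- The cost of the fractional cover `g` at `p`. -/
def fracCost {X : Type} [Fintype X] (g : Finset X → ℝ) (p : ℝ) : ℝ :=
  ∑ S : Finset X, g S * p ^ S.card

/-- The support of `g` is a laminar family: two sets of nonzero weight are nested or disjoint. -/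
def LaminarSupp {X : Type} [DecidableEq X] (g : Finset X → ℝ) : Prop :=
  ∀ S T, g S ≠ 0 → g T ≠ 0 → S ⊆ T ∨ T ⊆ S ∨ Disjoint S T

theorem result (X : Type) [Fintype X] [DecidableEq X] (F : Finset (Finset X))
    (g : Finset X → ℝ) (p : ℝ) (hp0 : 0 ≤ p) (hp1 : p ≤ 1)
    (hg : IsFracCover g F) (hlam : LaminarSupp g) (hcost : fracCost g p ≤ 1 / 2) :
    IsSmall F (p / 2 ^ 38) := by
  classical
  obtain ⟨hg01, hgF⟩ := hg
  have hg0 : ∀ S, 0 ≤ g S := fun S => (hg01 S).1
  obtain ⟨LL, hLLmem⟩ : ∃ LL : Finset (Finset X), ∀ S, S ∈ LL ↔ (g S ≠ 0 ∧ S.Nonempty) :=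
    ⟨univ.filter (fun S => g S ≠ 0 ∧ S.Nonempty), by simp⟩
  set GG : Finset X → ℝ := fun S => ∑ S' ∈ LL.filter (fun S' => S' ⊆ S), g S' with hGG
  set lam : Finset X → ℝ := fun S => min 1 (2 * GG S) with hlamdef
  set a : Finset X → ℝ := fun S => (p / 2) ^ S.card with ha
  have ha0 : ∀ S, 0 ≤ a S := fun S => by simp only [ha]; positivity
  have hGG0 : ∀ S, 0 ≤ GG S := fun S => Finset.sum_nonneg (fun S' _ => hg0 S')
  have hterm0 : ∀ S : Finset X, 0 ≤ g S * p ^ S.card := fun S => mul_nonneg (hg0 S) (by positivity)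
  -- f1
  have f1 : g ∅ ≤ 1 / 2 := by
    have h := Finset.single_le_sum (f := fun S : Finset X => g S * p ^ S.card)
      (fun S _ => hterm0 S) (Finset.mem_univ (∅ : Finset X))
    simp only [Finset.card_empty, pow_zero, mul_one] at h
    unfold fracCost at hcost
    linarith
  -- f2
  have f2 : ∀ H ∈ F, 1 / 2 ≤ ∑ S' ∈ LL.filter (fun S' => S' ⊆ H), g S' := by
    intro H hH
    have h1 := hgF H hH
    have h2 : ∑ S ∈ H.powerset, g S = g ∅ + ∑ S ∈ H.powerset.erase ∅, g S := by
      rw [Finset.add_sum_erase _ _ (Finset.empty_mem_powerset H)]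
    have h3 : ∑ S ∈ H.powerset.erase ∅, g S
        = ∑ S ∈ (H.powerset.erase ∅).filter (fun S => g S ≠ 0), g S :=
      (Finset.sum_filter_ne_zero _).symm
    have h4 : (H.powerset.erase ∅).filter (fun S => g S ≠ 0) = LL.filter (fun S' => S' ⊆ H) := by
      ext S
      simp only [hLLmem, mem_filter, mem_erase, mem_powerset,
        Finset.nonempty_iff_ne_empty]
      tauto
    rw [h4] at h3
    linarith
  -- chain sum
  have fchain : ∀ S' ∈ LL, ∑ S ∈ LL.filter (fun S => S' ⊆ S), a S ≤ 2 * a S' := by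
    intro S' hS'
    obtain ⟨hgS', hneS'⟩ := (hLLmem S').mp hS'
    set C := LL.filter (fun S => S' ⊆ S) with hC
    have hinj : Set.InjOn (fun S : Finset X => S.card - S'.card) (C : Set (Finset X)) := by
      intro S hS T hT hST
      have hS1 := Finset.mem_filter.mp (Finset.mem_coe.mp hS)
      have hT1 := Finset.mem_filter.mp (Finset.mem_coe.mp hT)
      have hcS := Finset.card_le_card hS1.2
      have hcT := Finset.card_le_card hT1.2
      have hcard : S.card = T.card := by
        simp only at hST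
        omega
      rcases hlam S T ((hLLmem S).mp hS1.1).1 ((hLLmem T).mp hT1.1).1 with h | h | h
      · exact Finset.eq_of_subset_of_card_le h hcard.symm.le
      · exact (Finset.eq_of_subset_of_card_le h hcard.le).symm
      · exfalso
        obtain ⟨x, hx⟩ := hneS'
        exact (Finset.disjoint_left.mp h) (hS1.2 hx) (hT1.2 hx)
    have hle : ∀ S ∈ C, a S ≤ a S' * (1 / 2 : ℝ) ^ (S.card - S'.card) := by
      intro S hS
      have hS1 := Finset.mem_filter.mp hS
      have hcS := Finset.card_le_card hS1.2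
      have e : a S = a S' * (p / 2) ^ (S.card - S'.card) := by
        simp only [ha]
        rw [← pow_add]
        congr 1
        omega
      rw [e]
      apply mul_le_mul_of_nonneg_left _ (ha0 S')
      apply pow_le_pow_left₀ (by positivity)
      linarith
    calc ∑ S ∈ C, a S ≤ ∑ S ∈ C, a S' * (1 / 2 : ℝ) ^ (S.card - S'.card) := Finset.sum_le_sum hle
      _ = a S' * ∑ S ∈ C, (1 / 2 : ℝ) ^ (S.card - S'.card) := by rw [Finset.mul_sum]
      _ = a S' * ∑ j ∈ C.image (fun S : Finset X => S.card - S'.card), (1 / 2 : ℝ) ^ j := by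
          rw [Finset.sum_image hinj]
      _ ≤ a S' * 2 := mul_le_mul_of_nonneg_left (sum_geom_half_le _) (ha0 S')
      _ = 2 * a S' := by ring
  -- f3
  have f3 : ∑ S ∈ LL, lam S * a S ≤ 1 := by
    have h1 : ∑ S ∈ LL, lam S * a S ≤ ∑ S ∈ LL, (2 * GG S) * a S := by
      apply Finset.sum_le_sum
      intro S _
      exact mul_le_mul_of_nonneg_right (min_le_right _ _) (ha0 S)
    have h2 : ∑ S ∈ LL, (2 * GG S) * a S
        = 2 * ∑ S' ∈ LL, g S' * ∑ S ∈ LL.filter (fun S => S' ⊆ S), a S := by
      have e1 : ∀ S ∈ LL, (2 * GG S) * a S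
          = 2 * ∑ S' ∈ LL, (if S' ⊆ S then g S' * a S else 0) := by
        intro S _
        simp only [hGG]
        rw [Finset.sum_filter, mul_assoc, Finset.sum_mul]
        congr 1
        apply Finset.sum_congr rfl
        intro S' _
        split_ifs <;> simp
      rw [Finset.sum_congr rfl e1, ← Finset.mul_sum, Finset.sum_comm]
      congr 1
      apply Finset.sum_congr rfl
      intro S' _
      rw [Finset.sum_filter, Finset.mul_sum]
      apply Finset.sum_congr rfl
      intro S _
      split_ifs <;> simp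
    have h3 : ∑ S' ∈ LL, g S' * ∑ S ∈ LL.filter (fun S => S' ⊆ S), a S
        ≤ ∑ S' ∈ LL, g S' * p ^ S'.card := by
      apply Finset.sum_le_sum
      intro S' hS'
      apply mul_le_mul_of_nonneg_left _ (hg0 S')
      refine (fchain S' hS').trans ?_
      obtain ⟨_, hne⟩ := (hLLmem S').mp hS'
      have hc1 : 1 ≤ S'.card := hne.card_pos
      simp only [ha]
      rw [div_pow]
      have h2pow : (2 : ℝ) ≤ 2 ^ S'.card := by
        calc (2 : ℝ) = 2 ^ 1 := by norm_num
          _ ≤ 2 ^ S'.card := pow_le_pow_right₀ (by norm_num) hc1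
      have hpp : 0 ≤ p ^ S'.card := by positivity
      rw [← mul_div_assoc, div_le_iff₀ (by positivity)]
      nlinarith
    have h4 : ∑ S' ∈ LL, g S' * p ^ S'.card ≤ fracCost g p := by
      unfold fracCost
      apply Finset.sum_le_sum_of_subset_of_nonneg (Finset.subset_univ _)
      intro S _ _
      exact hterm0 S
    linarith
  have hlam0 : ∀ S ∈ LL, 0 < lam S := by
    intro S hS
    obtain ⟨hgS, _⟩ := (hLLmem S).mp hS
    have hpos : 0 < g S := lt_of_le_of_ne (hg0 S) (Ne.symm hgS)
    have hle : g S ≤ GG S := by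
      apply Finset.single_le_sum (f := fun S' => g S') (fun S' _ => hg0 S')
      exact Finset.mem_filter.mpr ⟨hS, Finset.Subset.refl S⟩
    simp only [hlamdef]
    apply lt_min zero_lt_one
    linarith
  have hlam1 : ∀ S ∈ LL, lam S ≤ 1 := fun S _ => min_le_left _ _
  obtain ⟨K, hK1, hK2, hK3⟩ := core LL a lam ha0 hlam0 hlam1 f3
  set q : ℝ := p / 2 ^ 38 with hq
  have hq0 : 0 ≤ q := by simp only [hq]; positivity
  set KD : Finset (Finset (Finset X)) :=
    K.filter (fun I : Finset (Finset X) => (I : Set (Finset X)).PairwiseDisjoint id) with hKD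
  refine ⟨KD.image (fun I => I.biUnion id), ?_, ?_⟩
  · intro H hH
    set LH := LL.filter (fun S' => S' ⊆ H) with hLH
    set J := LH.filter (fun S => Maximal (fun T => T ∈ LH) S) with hJ
    have hJLH : J ⊆ LH := Finset.filter_subset _ _
    have hJsub : J ⊆ LL := hJLH.trans (Finset.filter_subset _ _)
    have hJdisj : (J : Set (Finset X)).PairwiseDisjoint id := by
      intro S hS T hT hne
      have hS1 := Finset.mem_filter.mp (Finset.mem_coe.mp hS)
      have hT1 := Finset.mem_filter.mp (Finset.mem_coe.mp hT)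
      have hSL := hJsub (Finset.mem_coe.mp hS)
      have hTL := hJsub (Finset.mem_coe.mp hT)
      rcases hlam S T ((hLLmem S).mp hSL).1 ((hLLmem T).mp hTL).1 with h | h | h
      · exact absurd (Finset.Subset.antisymm h (hS1.2.2 hT1.1 h)) hne
      · exact absurd (Finset.Subset.antisymm (hT1.2.2 hS1.1 h) h) hne
      · exact h
    have hsum : 1 ≤ ∑ S ∈ J, lam S := by
      apply one_le_sum_min J (fun S => 2 * GG S)
      · intro S _
        have := hGG0 S
        linarith
      · have h1 : LH ⊆ J.biUnion (fun S => LL.filter (fun S' => S' ⊆ S)) := by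
          intro S' hS'
          obtain ⟨S, hS'S, hSmax⟩ := Finset.exists_le_maximal LH hS'
          apply Finset.mem_biUnion.mpr
          refine ⟨S, Finset.mem_filter.mpr ⟨hSmax.1, hSmax⟩, ?_⟩
          exact Finset.mem_filter.mpr ⟨(Finset.mem_filter.mp hS').1, hS'S⟩
        have h2 : ∑ S' ∈ LH, g S' ≤ ∑ S' ∈ J.biUnion (fun S => LL.filter (fun S' => S' ⊆ S)), g S' :=
          Finset.sum_le_sum_of_subset_of_nonneg h1 (fun S' _ _ => hg0 S')
        have h3 := sum_biUnion_le' J (fun S => LL.filter (fun S' => S' ⊆ S)) g hg0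
        have h4 := f2 H hH
        rw [← Finset.mul_sum]
        have h5 : ∑ S ∈ J, GG S = ∑ S ∈ J, ∑ S' ∈ LL.filter (fun S' => S' ⊆ S), g S' := rfl
        linarith
    obtain ⟨I, hIK, hIJ⟩ := hK2 J hJsub hsum
    refine ⟨I.biUnion id, Finset.mem_image.mpr ⟨I, Finset.mem_filter.mpr ⟨hIK, ?_⟩, rfl⟩, ?_⟩
    · exact hJdisj.subset (by exact_mod_cast hIJ)
    · intro x hx
      obtain ⟨S, hS, hxS⟩ := Finset.mem_biUnion.mp hx
      have := (Finset.mem_filter.mp (hJLH (hIJ hS))).2
      exact this hxS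
  · unfold cost
    have h1 := sum_image_le' KD (fun I : Finset (Finset X) => I.biUnion id)
      (fun U : Finset X => q ^ U.card) (fun U => by positivity)
    have h2 : ∀ I ∈ KD, q ^ (I.biUnion id).card ≤ ∏ S ∈ I, (a S / 2 ^ 37) := by
      intro I hI
      obtain ⟨hIK, hIdisj⟩ := Finset.mem_filter.mp hI
      have hcard : (I.biUnion id).card = ∑ S ∈ I, S.card := by
        rw [Finset.card_biUnion]
        · rfl
        · intro S hS T hT hne
          exact hIdisj (Finset.mem_coe.mpr hS) (Finset.mem_coe.mpr hT) hne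
      rw [hcard, ← Finset.prod_pow_eq_pow_sum]
      apply Finset.prod_le_prod
      · intro S _
        positivity
      · intro S hS
        have hSL := (hK1 I hIK).2 hS
        have hc1 : 1 ≤ S.card := ((hLLmem S).mp hSL).2.card_pos
        have e : q = (p / 2) / 2 ^ 37 := by
          simp only [hq]
          ring
        rw [e, div_pow]
        simp only [ha]
        apply div_le_div_of_nonneg_left (by positivity) (by positivity)
        calc (2 : ℝ) ^ 37 = (2 ^ 37) ^ 1 := by norm_num
          _ ≤ (2 ^ 37) ^ S.card := pow_le_pow_right₀ (by norm_num) hc1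
    have h3 : ∑ I ∈ KD, ∏ S ∈ I, (a S / 2 ^ 37) ≤ ∑ I ∈ K, ∏ S ∈ I, (a S / 2 ^ 37) := by
      apply Finset.sum_le_sum_of_subset_of_nonneg (Finset.filter_subset _ _)
      intro I _ _
      exact Finset.prod_nonneg (fun S _ => div_nonneg (ha0 S) (by positivity))
    have h4 := Finset.sum_le_sum h2
    linarith

end Vale.Agent.Results.P034.DisjointOrNestedSupport
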