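import Vale.Agent.Results.P034.BoundedDegreeGraphs
import Vale.Agent.Results.P034.BoundedDegreeSupport
import Vale.Agent.Results.P034.ConnectedSupport
import Vale.Agent.Results.P034.DisjointOrNestedSupport

/-!
# P034: conjunction of four special cases of Talagrand's conjecture on fractional covers
-/

namespace Vale.Agent.Results.P034.AllParts

open Finset Vale.Agent.P064 Vale.Agent.P034

theorem result :
    (∀ (n : ℕ) (H : Finset (Sym2 (Fin n))) (D : ℕ),
      H ⊆ allEdges n → 1 ≤ D → (∀ v, deg H v ≤ D) →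
      ∀ F : Finset (Finset (Sym2 (Fin n))),
      (∀ G, G ∈ F ↔ ∃ σ : Equiv.Perm (Fin n), relabel σ H ⊆ G) →
      ∀ (g : Finset (Sym2 (Fin n)) → ℝ) (p : ℝ), 0 ≤ p →
      IsFracCover g F → fracCost g p ≤ 1 / 2 → IsSmall F (p / (216 * D))) ∧
    (∀ (X : Type) [Fintype X] [DecidableEq X] (F : Finset (Finset X))
      (g : Finset X → ℝ) (p : ℝ), 0 ≤ p → IsFracCover g F → fracCost g p ≤ 1 / 2 →
      ∀ D : ℕ, 1 ≤ D →
      (∀ x : X, ∃ A : Finset (Finset X), (∀ S, g S ≠ 0 → x ∈ S → S ∈ A) ∧ A.card ≤ D) →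
      IsSmall F (min p (1 / (D : ℝ)) / 2 ^ 39)) ∧
    (∀ (X : Type) [Fintype X] [DecidableEq X] (F : Finset (Finset X))
      (g : Finset X → ℝ) (p : ℝ), 0 ≤ p → IsFracCover g F → fracCost g p ≤ 1 / 2 →
      ∀ (Γ : SimpleGraph X) [DecidableRel Γ.Adj] (D : ℕ), 1 ≤ D →
      (∀ x, Γ.degree x ≤ D) →
      (∀ S : Finset X, g S ≠ 0 → (Γ.induce (S : Set X)).Preconnected) →
      IsSmall F (min p (1 / (D : ℝ)) / 2 ^ 39)) ∧
    (∀ (X : Type) [Fintype X] [DecidableEq X] (F : Finset (Finset X))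
      (g : Finset X → ℝ) (p : ℝ), 0 ≤ p → p ≤ 1 → IsFracCover g F →
      (∀ S T, g S ≠ 0 → g T ≠ 0 → S ⊆ T ∨ T ⊆ S ∨ Disjoint S T) →
      fracCost g p ≤ 1 / 2 → IsSmall F (p / 2 ^ 38)) := by
  refine ⟨?_, ?_, ?_, ?_⟩
  · intro n H D hH hD hdeg F hF g p hp0 hg hcost
    exact BoundedDegreeGraphs.result n H D hH hD hdeg F hF g p hp0 hg hcost
  · intro X _ _ F g p hp0 hg hcost D hD hdeg
    refine BoundedDegreeSupport.result X F g p hp0 hg hcost D hD ?_
    intro x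
    obtain ⟨A, hA, hAc⟩ := hdeg x
    refine le_trans (Finset.card_le_card ?_) hAc
    intro S hS
    have h := (Finset.mem_filter.1 hS).2
    exact hA S h.1 h.2
  · intro X _ _ F g p hp0 hg hcost Γ _ D hD hdeg hconn
    exact ConnectedSupport.result X F g p hp0 hg hcost Γ D hD hdeg hconn
  · intro X _ _ F g p hp0 hp1 hg hlam hcost
    exact DisjointOrNestedSupport.result X F g p hp0 hp1 hg hlam hcost

end Vale.Agent.Results.P034.AllParts
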