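import Vale.Agent.P064.BD.Talagrand

/-!
# P034: the families of graphs containing a copy of a graph of bounded degree

Let `H` be a graph on `Fin n` of maximum degree at most `D` and let `F` be the increasing family of
all edge sets that contain a copy of `H`. If `F` has a fractional cover of cost at most `1/2` at
`p`, then `F` is `p / (216 D)`-small.
-/

namespace Vale.Agent.Results.P034.BoundedDegreeGraphs

open Vale.Agent.P064 Vale.Agent.P034

theorem result (n : ℕ) (H : Finset (Sym2 (Fin n))) (D : ℕ)
    (hH : H ⊆ allEdges n) (hD : 1 ≤ D) (hdeg : ∀ v, deg H v ≤ D)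
    (F : Finset (Finset (Sym2 (Fin n))))
    (hF : ∀ G, G ∈ F ↔ ∃ σ : Equiv.Perm (Fin n), relabel σ H ⊆ G)
    (g : Finset (Sym2 (Fin n)) → ℝ) (p : ℝ) (hp0 : 0 ≤ p)
    (hg : IsFracCover g F) (hcost : fracCost g p ≤ 1 / 2) :
    IsSmall F (p / (216 * D)) :=
  BD.talagrand_bounded_degree n H D hH hD hdeg F hF g p hp0 hg hcost

end Vale.Agent.Results.P034.BoundedDegreeGraphs
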