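import Mathlib
import Vale.Agent.P034.Cluster

namespace Vale.Agent.Results.P034.IntervalSupport

open Finset Vale.Agent.P034

theorem result (n : ℕ) (F : Finset (Finset (Fin n)))
    (g : Finset (Fin n) → ℝ) (p : ℝ) (hp0 : 0 ≤ p) (hp1 : p ≤ 1)
    (hg : IsFracCover g F) (hcost : fracCost g p ≤ 1 / 2)
    (hint : ∀ S : Finset (Fin n), g S ≠ 0 → ∃ a b : Fin n, S = Finset.Icc a b) :
    IsSmall F (p / 2 ^ 40) := by
  classical
  set tt : Fin n → Finset (Fin n) :=
    fun i => univ.filter (fun j : Fin n => j.val = i.val ∨ j.val = i.val + 1) with htt
  set E : Finset (Finset (Fin n)) := univ.image tt with hE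
  have key : IsSmall F (min p (1 / ((2 : ℕ) : ℝ)) / 2 ^ 39) := by
    apply linked_small_min (Fin n) F g p hp0 hg hcost E 2 (by norm_num)
    · intro x
      have hsub : E.filter (fun T => x ∈ T)
          ⊆ (univ.filter (fun i : Fin n => i.val = x.val ∨ i.val + 1 = x.val)).image tt := by
        intro T hT
        obtain ⟨hTE, hxT⟩ := Finset.mem_filter.mp hT
        obtain ⟨i, _, rfl⟩ := Finset.mem_image.mp hTE
        have hx := (Finset.mem_filter.mp hxT).2
        refine Finset.mem_image.mpr ⟨i, Finset.mem_filter.mpr ⟨Finset.mem_univ _, ?_⟩, rfl⟩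
        rcases hx with h | h
        · exact Or.inl h.symm
        · exact Or.inr h.symm
      refine le_trans (Finset.card_le_card hsub) (le_trans Finset.card_image_le ?_)
      have hmaps : Set.MapsTo (fun i : Fin n => i.val)
          (univ.filter (fun i : Fin n => i.val = x.val ∨ i.val + 1 = x.val) : Finset (Fin n))
          (({x.val, x.val - 1} : Finset ℕ) : Set ℕ) := by
        intro i hi
        have h := (Finset.mem_filter.mp (Finset.mem_coe.mp hi)).2
        simp only [Finset.coe_insert, Finset.coe_singleton, Set.mem_insert_iff,
          Set.mem_singleton_iff]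
        omega
      refine le_trans (Finset.card_le_card_of_injOn _ hmaps (Fin.val_injective.injOn)) ?_
      exact Finset.card_le_two
    · intro S hS Q hQne hQss
      obtain ⟨a, b, rfl⟩ := hint S hS
      by_contra hcon
      -- membership in Q is constant along the interval
      have hstep : ∀ i j : Fin n, a ≤ i → j ≤ b → j.val = i.val + 1 → (i ∈ Q ↔ j ∈ Q) := by
        intro i j hai hjb hij
        by_contra hne
        apply hcon
        have hiS : i ∈ Finset.Icc a b := by
          rw [Finset.mem_Icc]
          refine ⟨hai, le_trans ?_ hjb⟩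
          rw [Fin.le_def]
          omega
        have hjS : j ∈ Finset.Icc a b := by
          rw [Finset.mem_Icc]
          refine ⟨le_trans hai ?_, hjb⟩
          rw [Fin.le_def]
          omega
        have hi_t : i ∈ tt i := Finset.mem_filter.mpr ⟨Finset.mem_univ _, Or.inl rfl⟩
        have hj_t : j ∈ tt i := Finset.mem_filter.mpr ⟨Finset.mem_univ _, Or.inr hij⟩
        refine ⟨tt i, Finset.mem_image.mpr ⟨i, Finset.mem_univ _, rfl⟩, ?_, ?_, ?_⟩
        · intro y hy
          rcases (Finset.mem_filter.mp hy).2 with h | h
          · have : y = i := Fin.ext h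
            rw [this]
            exact hiS
          · have : y = j := Fin.ext (by omega)
            rw [this]
            exact hjS
        · rw [Finset.not_disjoint_iff]
          by_cases hiQ : i ∈ Q
          · exact ⟨i, hi_t, hiQ⟩
          · have hjQ : j ∈ Q := by
              by_contra hjQ
              exact hne ⟨fun h => absurd h hiQ, fun h => absurd h hjQ⟩
            exact ⟨j, hj_t, hjQ⟩
        · intro hsub
          exact hne ⟨fun _ => hsub hj_t, fun _ => hsub hi_t⟩
      have hall : ∀ k : ℕ, ∀ i : Fin n, i.val = a.val + k → i ≤ b → (i ∈ Q ↔ a ∈ Q) := by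
        intro k
        induction k with
        | zero =>
          intro i hi _
          have : i = a := Fin.ext (by omega)
          rw [this]
        | succ k ih =>
          intro i hi hib
          have hlt : a.val + k < n := by
            have := i.isLt
            omega
          set i' : Fin n := ⟨a.val + k, hlt⟩ with hi'
          have h1 : i' ≤ b := by
            refine le_trans ?_ hib
            rw [Fin.le_def]
            simp only [hi']
            omega
          have h2 := ih i' rfl h1
          have h3 := hstep i' i (by rw [Fin.le_def]; simp only [hi']; omega) hib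
            (by simp only [hi']; omega)
          rw [← h3, h2]
      have hconst : ∀ i ∈ Finset.Icc a b, (i ∈ Q ↔ a ∈ Q) := by
        intro i hi
        rw [Finset.mem_Icc] at hi
        have h1 : a.val ≤ i.val := hi.1
        exact hall (i.val - a.val) i (by omega) hi.2
      obtain ⟨y, hy⟩ := hQne
      have haQ : a ∈ Q := (hconst y (hQss.subset hy)).mp hy
      exact hQss.2 (fun i hi => (hconst i hi).mpr haQ)
  apply isSmall_mono F _ _ (by positivity) _ key
  have h2 : p / 2 ≤ min p (1 / ((2 : ℕ) : ℝ)) := by
    apply le_min
    · linarith
    · norm_num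
      linarith
  calc p / 2 ^ 40 = (p / 2) / 2 ^ 39 := by ring
    _ ≤ min p (1 / ((2 : ℕ) : ℝ)) / 2 ^ 39 := by
      apply div_le_div_of_nonneg_right h2 (by positivity)

end Vale.Agent.Results.P034.IntervalSupport
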